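import Mathlib

namespace Vale.Agent.Lib.P061

/-- The unordered pair `z` has exactly one endpoint in `S`. -/
def Crosses {V : Type*} (S : Finset V) (z : Sym2 V) : Prop :=
  ∃ u ∈ z, ∃ v ∈ z, u ∈ S ∧ v ∉ S

open Classical in
/-- A multigraph is given by a finite type `E` of edge copies and a map `ends` sending each copy to
its unordered pair of endpoints. `boundary ends T S` is the set of edge copies in `T` with exactly
one endpoint in `S`; with `T = Finset.univ` it is the full cut of `S`. -/
noncomputable def boundary {V E : Type*} (ends : E → Sym2 V) (T : Finset E) (S : Finset V) :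
    Finset E :=
  T.filter (fun e => Crosses S (ends e))

/-- `k`-edge-connected: every nonempty proper vertex set has at least `k` boundary edge copies. -/
def EdgeConnected {V E : Type*} [Fintype V] [Fintype E] (ends : E → Sym2 V) (k : ℕ) : Prop :=
  ∀ S : Finset V, S.Nonempty → S ≠ Finset.univ → k ≤ (boundary ends Finset.univ S).card

/-- `T` is a spanning tree: `|V| - 1` edge copies forming a connected graph on `V`
(connectedness: every nonempty proper vertex set is left by some edge of `T`). -/
def IsSpanningTree {V E : Type*} [Fintype V] (ends : E → Sym2 V) (T : Finset E) : Prop :=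
  T.card + 1 = Fintype.card V ∧
    ∀ S : Finset V, S.Nonempty → S ≠ Finset.univ → (boundary ends T S).Nonempty

/-- `T` is `α`-thin: it contains at most an `α` fraction of every cut. -/
def IsThin {V E : Type*} [Fintype V] [Fintype E] (ends : E → Sym2 V) (α : ℝ) (T : Finset E) : Prop :=
  ∀ S : Finset V, S.Nonempty → S ≠ Finset.univ →
    ((boundary ends T S).card : ℝ) ≤ α * (boundary ends Finset.univ S).card

/-- The strong thin tree statement with constant `C`: for every `k ≥ 1`, every `k`-edge-connected
loopless finite multigraph on at least two vertices has a `(C / k)`-thin spanning tree. -/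
def StrongThinTree (C : ℝ) : Prop :=
  ∀ k : ℕ, 1 ≤ k → ∀ (V E : Type) [Fintype V] [Fintype E] (ends : E → Sym2 V),
    (∀ e, ¬ (ends e).IsDiag) → 2 ≤ Fintype.card V → EdgeConnected ends k →
      ∃ T : Finset E, IsSpanningTree ends T ∧ IsThin ends (C / k) T

/-- The complete graph on `Fin n` as a multigraph: its edge copies are the non-diagonal unordered
pairs, each being its own pair of endpoints. -/
def endsK (n : ℕ) : {z : Sym2 (Fin n) // ¬ z.IsDiag} → Sym2 (Fin n) := Subtype.val

end Vale.Agent.Lib.P061
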