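import Mathlib
import Vale.Agent.Lib.P061.Defs
open Finset

namespace Vale.Agent.Lib.P061

theorem crosses_mk {V : Type*} (S : Finset V) (a b : V) :
    Crosses S s(a, b) ↔ (a ∈ S ∧ b ∉ S) ∨ (b ∈ S ∧ a ∉ S) := by
  constructor
  · rintro ⟨u, hu, v, hv, huS, hvS⟩
    rw [Sym2.mem_iff] at hu hv
    rcases hu with rfl | rfl <;> rcases hv with rfl | rfl
    · exact absurd huS hvS
    · exact Or.inl ⟨huS, hvS⟩
    · exact Or.inr ⟨huS, hvS⟩
    · exact absurd huS hvS
  · rintro (⟨h1, h2⟩ | ⟨h1, h2⟩)
    · exact ⟨a, Sym2.mem_mk_left a b, b, Sym2.mem_mk_right a b, h1, h2⟩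
    · exact ⟨b, Sym2.mem_mk_right a b, a, Sym2.mem_mk_left a b, h1, h2⟩

/-- The graph of a family of pairs leaving every nonempty proper vertex set is connected. -/
theorem connected_of_crossing {V : Type*} [Fintype V] [Nonempty V] (Z : Finset (Sym2 V))
    (h : ∀ S : Finset V, S.Nonempty → S ≠ Finset.univ → ∃ z ∈ Z, Crosses S z) :
    (SimpleGraph.fromEdgeSet (Z : Set (Sym2 V))).Connected := by
  classical
  set G' := SimpleGraph.fromEdgeSet (Z : Set (Sym2 V)) with hG'
  have hpre : G'.Preconnected := by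
    intro u v
    by_contra hnot
    set S := Finset.univ.filter (fun x => G'.Reachable u x) with hS
    have huS : u ∈ S := by simp [hS]
    have hvS : v ∉ S := by simp [hS, hnot]
    obtain ⟨z, hz, a, ha, b, hb, haS, hbS⟩ := h S ⟨u, huS⟩ (fun h => hvS (h ▸ Finset.mem_univ v))
    have hab : a ≠ b := fun h => hbS (h ▸ haS)
    have hzab : z = s(a, b) := (Sym2.mem_and_mem_iff hab).mp ⟨ha, hb⟩
    have hadj : G'.Adj a b := by
      rw [hG', SimpleGraph.fromEdgeSet_adj]
      exact ⟨by rw [← hzab]; exact hz, hab⟩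
    apply hbS
    have haR : G'.Reachable u a := by simpa [hS] using haS
    simp only [hS, Finset.mem_filter, Finset.mem_univ, true_and]
    exact haR.trans hadj.reachable
  exact ⟨hpre⟩

theorem card_edgeSet_le {V : Type*} (Z : Finset (Sym2 V)) :
    Nat.card (SimpleGraph.fromEdgeSet (Z : Set (Sym2 V))).edgeSet ≤ Z.card := by
  rw [SimpleGraph.edgeSet_fromEdgeSet, Nat.card_coe_set_eq]
  calc ((Z : Set (Sym2 V)) \ {e | e.IsDiag}).ncard ≤ (Z : Set (Sym2 V)).ncard :=
        Set.ncard_le_ncard Set.sdiff_subset (Finset.finite_toSet Z)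
    _ = Z.card := Set.ncard_coe_finset Z

/-- Every spanning tree of a loopless multigraph on at least two vertices has a vertex set
(a colour class of the tree) that is crossed by all edges of the tree. -/
theorem exists_bipartition {V E : Type*} [Fintype V] (ends : E → Sym2 V)
    (hloop : ∀ e, ¬ (ends e).IsDiag) (hV : 2 ≤ Fintype.card V) (T : Finset E)
    (hT : IsSpanningTree ends T) :
    ∃ S : Finset V, S.Nonempty ∧ S ≠ Finset.univ ∧ boundary ends T S = T := by
  classical
  obtain ⟨hcard, hconn⟩ := hT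
  have hne : Nonempty V := Fintype.card_pos_iff.mp (by omega)
  set Z := T.image ends with hZ
  have hc := connected_of_crossing Z (by
    intro S hS huniv
    obtain ⟨e, he⟩ := hconn S hS huniv
    rw [boundary, Finset.mem_filter] at he
    exact ⟨ends e, Finset.mem_image_of_mem _ he.1, he.2⟩)
  have h1 := hc.card_vert_le_card_edgeSet_add_one
  have h2 := card_edgeSet_le Z
  have h3 : Z.card ≤ T.card := Finset.card_image_le
  rw [Nat.card_eq_fintype_card] at h1
  have htree : (SimpleGraph.fromEdgeSet (Z : Set (Sym2 V))).IsTree := by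
    rw [SimpleGraph.isTree_iff_connected_and_card]
    refine ⟨hc, ?_⟩
    rw [Nat.card_eq_fintype_card (α := V)]
    omega
  obtain ⟨c⟩ := htree.isAcyclic.colorable_two
  set S := Finset.univ.filter (fun x => c x = 0) with hS
  have hall : ∀ e ∈ T, Crosses S (ends e) := by
    intro e he
    induction hz : ends e using Sym2.ind with
    | _ a b =>
      have hab : a ≠ b := by
        intro h
        apply hloop e
        rw [hz, h]
        exact Sym2.mk_isDiag_iff.mpr rfl
      have hadj : (SimpleGraph.fromEdgeSet (Z : Set (Sym2 V))).Adj a b := by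
        rw [SimpleGraph.fromEdgeSet_adj]
        refine ⟨?_, hab⟩
        rw [← hz]
        exact Finset.mem_coe.mpr (Finset.mem_image_of_mem _ he)
      have hcol := c.valid hadj
      rw [crosses_mk]
      simp only [hS, Finset.mem_filter, Finset.mem_univ, true_and]
      generalize c a = x at hcol
      generalize c b = y at hcol
      revert x y
      decide
  have hTne : T.Nonempty := by
    rw [← Finset.card_pos]; omega
  obtain ⟨e, he⟩ := hTne
  obtain ⟨u, _, v, _, huS, hvS⟩ := hall e he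
  refine ⟨S, ⟨u, huS⟩, fun h => hvS (h ▸ Finset.mem_univ v), ?_⟩
  rw [boundary, Finset.filter_eq_self]
  exact hall

theorem card_boundaryK (n : ℕ) (S : Finset (Fin n)) :
    (boundary (endsK n) Finset.univ S).card = S.card * (n - S.card) := by
  classical
  have h : (S ×ˢ Sᶜ).card = (boundary (endsK n) Finset.univ S).card := by
    apply Finset.card_bij (fun p hp => (⟨s(p.1, p.2), by
      rw [Finset.mem_product, Finset.mem_compl] at hp
      rw [Sym2.mk_isDiag_iff]
      intro h
      exact hp.2 (h ▸ hp.1)⟩ : {z : Sym2 (Fin n) // ¬ z.IsDiag}))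
    · intro p hp
      rw [Finset.mem_product, Finset.mem_compl] at hp
      rw [boundary, Finset.mem_filter]
      refine ⟨Finset.mem_univ _, ?_⟩
      simp only [endsK]
      rw [crosses_mk]
      exact Or.inl hp
    · intro p hp p' hp' heq
      rw [Finset.mem_product, Finset.mem_compl] at hp hp'
      have h1 : s(p.1, p.2) = s(p'.1, p'.2) := congrArg Subtype.val heq
      rw [Sym2.eq_iff] at h1
      rcases h1 with ⟨h1, h2⟩ | ⟨h1, h2⟩
      · exact Prod.ext h1 h2
      · exact absurd (h1 ▸ hp.1) hp'.2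
    · intro z hz
      rw [boundary, Finset.mem_filter] at hz
      obtain ⟨z, hzd⟩ := z
      induction z using Sym2.ind with
      | _ a b =>
        have hc := hz.2
        simp only [endsK] at hc
        rw [crosses_mk] at hc
        rcases hc with hc | hc
        · exact ⟨(a, b), by rw [Finset.mem_product, Finset.mem_compl]; exact hc, rfl⟩
        · refine ⟨(b, a), by rw [Finset.mem_product, Finset.mem_compl]; exact hc, ?_⟩
          apply Subtype.ext
          exact Sym2.eq_swap
  rw [← h, Finset.card_product, Finset.card_compl, Fintype.card_fin]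

theorem card_lt_of_ne_univ {n : ℕ} {S : Finset (Fin n)} (h : S ≠ Finset.univ) : S.card < n := by
  have h1 : S.card ≤ Fintype.card (Fin n) := Finset.card_le_univ S
  have h2 : S.card ≠ Fintype.card (Fin n) := fun hc => h (Finset.eq_univ_of_card S hc)
  rw [Fintype.card_fin] at h1 h2
  omega

theorem edgeConnectedK (k : ℕ) : EdgeConnected (endsK (k + 1)) k := by
  intro S hne huniv
  rw [card_boundaryK]
  have h1 : 0 < S.card := Finset.card_pos.mpr hne
  have h2 := card_lt_of_ne_univ huniv
  obtain ⟨a, ha⟩ : ∃ a, S.card = a + 1 := ⟨S.card - 1, by omega⟩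
  obtain ⟨b, hb⟩ : ∃ b, k + 1 - S.card = b + 1 := ⟨k + 1 - S.card - 1, by omega⟩
  rw [hb, ha]
  have : k = a + b + 1 := by omega
  rw [this]
  nlinarith

theorem looplessK (n : ℕ) (e : {z : Sym2 (Fin n) // ¬ z.IsDiag}) : ¬ (endsK n e).IsDiag := e.2

theorem exists_treeK (k : ℕ) : ∃ T, IsSpanningTree (endsK (k + 1)) T := by
  classical
  refine ⟨(Finset.univ : Finset (Fin k)).image (fun i => (⟨s(0, i.succ), by
    rw [Sym2.mk_isDiag_iff]; exact (Fin.succ_ne_zero i).symm⟩ : {z : Sym2 (Fin (k + 1)) // ¬ z.IsDiag})), ?_, ?_⟩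
  · rw [Finset.card_image_of_injective]
    · simp
    · intro i j hij
      have h1 : s((0 : Fin (k + 1)), i.succ) = s(0, j.succ) := congrArg Subtype.val hij
      rw [Sym2.eq_iff] at h1
      rcases h1 with ⟨_, h2⟩ | ⟨h1, _⟩
      · exact Fin.succ_injective _ h2
      · exact absurd h1.symm (Fin.succ_ne_zero j)
  · intro S hne huniv
    by_cases h0 : (0 : Fin (k + 1)) ∈ S
    · obtain ⟨b, hb⟩ : ∃ b, b ∉ S := by
        by_contra hcon
        push Not at hcon
        exact huniv (Finset.eq_univ_of_forall hcon)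
      have hb0 : b ≠ 0 := fun h => hb (h ▸ h0)
      obtain ⟨i, rfl⟩ := Fin.exists_succ_eq.mpr hb0
      refine ⟨⟨s(0, i.succ), by rw [Sym2.mk_isDiag_iff]; exact (Fin.succ_ne_zero i).symm⟩, ?_⟩
      rw [boundary, Finset.mem_filter]
      refine ⟨Finset.mem_image_of_mem _ (Finset.mem_univ i), ?_⟩
      simp only [endsK]
      rw [crosses_mk]
      exact Or.inl ⟨h0, hb⟩
    · obtain ⟨b, hb⟩ := hne
      have hb0 : b ≠ 0 := fun h => h0 (h ▸ hb)
      obtain ⟨i, rfl⟩ := Fin.exists_succ_eq.mpr hb0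
      refine ⟨⟨s(0, i.succ), by rw [Sym2.mk_isDiag_iff]; exact (Fin.succ_ne_zero i).symm⟩, ?_⟩
      rw [boundary, Finset.mem_filter]
      refine ⟨Finset.mem_image_of_mem _ (Finset.mem_univ i), ?_⟩
      simp only [endsK]
      rw [crosses_mk]
      exact Or.inr ⟨hb, h0⟩

theorem thinK (k : ℕ) (hk : 1 ≤ k) (T : Finset {z : Sym2 (Fin (k + 1)) // ¬ z.IsDiag}) (α : ℝ)
    (hT : IsSpanningTree (endsK (k + 1)) T) (hthin : IsThin (endsK (k + 1)) α T) :
    4 * (k : ℝ) / ((k : ℝ) + 1) ^ 2 ≤ α := by
  obtain ⟨S, hne, huniv, hS⟩ := exists_bipartition (endsK (k + 1)) (looplessK (k + 1))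
    (by rw [Fintype.card_fin]; omega) T hT
  have h1 := hthin S hne huniv
  rw [hS, card_boundaryK] at h1
  have hTc : T.card = k := by
    have := hT.1
    rw [Fintype.card_fin] at this
    omega
  rw [hTc] at h1
  have h2 := card_lt_of_ne_univ huniv
  push_cast [Nat.cast_sub h2.le] at h1
  set s : ℝ := (S.card : ℝ) with hs
  have hk0 : (0 : ℝ) < k := by exact_mod_cast hk
  have hα : 0 ≤ α := by
    by_contra hneg
    push Not at hneg
    have hs0 : 0 ≤ s * ((k : ℝ) + 1 - s) := by
      apply mul_nonneg (by positivity)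
      have : (S.card : ℝ) ≤ ((k + 1 : ℕ) : ℝ) := by exact_mod_cast h2.le
      push_cast at this
      linarith
    nlinarith
  have h3 : s * ((k : ℝ) + 1 - s) ≤ ((k : ℝ) + 1) ^ 2 / 4 := by nlinarith [sq_nonneg ((k : ℝ) + 1 - 2 * s)]
  have h4 : (k : ℝ) ≤ α * (((k : ℝ) + 1) ^ 2 / 4) := h1.trans (mul_le_mul_of_nonneg_left h3 hα)
  rw [div_le_iff₀ (by positivity)]
  linarith

theorem four_le_of_strongThinTree (C : ℝ) (hC : StrongThinTree C) : 4 ≤ C := by
  by_contra hlt
  push Not at hlt
  have key : ∀ k : ℕ, 1 ≤ k → 4 * (k : ℝ) ^ 2 ≤ C * ((k : ℝ) + 1) ^ 2 := by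
    intro k hk
    obtain ⟨T, hT, hthin⟩ := hC k hk (Fin (k + 1)) {z : Sym2 (Fin (k + 1)) // ¬ z.IsDiag} (endsK (k + 1))
      (looplessK (k + 1)) (by rw [Fintype.card_fin]; omega) (edgeConnectedK k)
    have h1 := thinK k hk T (C / k) hT hthin
    have hk0 : (0 : ℝ) < k := by exact_mod_cast hk
    rw [div_le_div_iff₀ (by positivity) hk0] at h1
    nlinarith
  obtain ⟨k, hk⟩ := exists_nat_gt (12 / (4 - C))
  have hε : 0 < 4 - C := by linarith
  have hk1 : 1 ≤ k := by
    have : (0 : ℝ) < k := lt_trans (by positivity) hk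
    exact_mod_cast this
  have hk1' : (1 : ℝ) ≤ k := by exact_mod_cast hk1
  have h2 := key k hk1
  rw [div_lt_iff₀ hε] at hk
  nlinarith

end Vale.Agent.Lib.P061
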